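import Mathlib
import Vale.Agent.Lib.P162.Thorp
import Vale.Agent.Lib.P162.Final

/-!
# P162: `t_mix(n) = O((log n)^2)` for the Thorp shuffle of `n = 2^d` cards.
-/

namespace Vale.Agent.Results.P162.LogSquaredOrder

open Vale.Agent.Lib.P162

/-- There is an absolute constant `C` such that for every `d ≥ 1` and `n = 2^d = 2 * m`:
the mixing time `t_mix(n)` is the least `t` with `‖q_n^{*t} - U_n‖_TV ≤ 1/4`, and
`t_mix(n) ≤ C (log n)^2` (natural logarithm). -/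
theorem result : ∃ C : ℝ, 0 < C ∧ ∀ d n m : ℕ, 1 ≤ d → n = 2 ^ d → n = 2 * m →
    IsLeast {t : ℕ | tvUnif (convPow (thorpLaw m) t) ≤ 1 / 4} (tmix m) ∧
      (tmix m : ℝ) ≤ C * (Real.log (n : ℝ)) ^ 2 := by
  have hlog : 0 < Real.log 2 := Real.log_pos (by norm_num)
  refine ⟨2000 / (Real.log 2) ^ 2, by positivity, ?_⟩
  intro d n m hd hn hm
  obtain ⟨e, rfl⟩ : ∃ e, d = e + 1 := ⟨d - 1, by omega⟩
  have hme : m = 2 ^ e := by
    have : 2 * m = 2 * 2 ^ e := by rw [← hm, hn, pow_succ]; ring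
    omega
  subst hme
  obtain ⟨h1, h2⟩ := thorp_tmix e
  refine ⟨⟨h1, fun t ht => Nat.sInf_le ht⟩, ?_⟩
  have hn' : Real.log (n : ℝ) = ((e : ℝ) + 1) * Real.log 2 := by
    rw [hn]
    push_cast
    rw [Real.log_pow]
    push_cast
    ring
  rw [hn']
  have h3 : (tmix (2 ^ e) : ℝ) ≤ 2000 * ((e : ℝ) + 1) ^ 2 := by exact_mod_cast h2
  have h4 : 2000 / (Real.log 2) ^ 2 * (((e : ℝ) + 1) * Real.log 2) ^ 2
      = 2000 * ((e : ℝ) + 1) ^ 2 := by
    field_simp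
  rw [h4]
  exact h3

end Vale.Agent.Results.P162.LogSquaredOrder
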