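import Mathlib
import Vale.Agent.Lib.P162.Thorp
import Vale.Agent.Lib.P162.Final

/-!
# P162: the Thorp shuffle of `n = 2^d` cards mixes in at most `2000 d^2` shuffles.
-/

namespace Vale.Agent.Results.P162.ThorpQuadratic

open Vale.Agent.Lib.P162

/-- For a deck of `n = 2 * 2^e = 2^(e+1)` cards: the set of times `t` with
`‖q_n^{*t} - U_n‖_TV ≤ 1/4` is nonempty (its minimum `tmix` belongs to it) and
`t_mix(n) ≤ 2000 (e+1)^2 = 2000 (log_2 n)^2`. -/
theorem result : ∀ e : ℕ,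
    tvUnif (convPow (thorpLaw (2 ^ e)) (tmix (2 ^ e))) ≤ 1 / 4 ∧
      tmix (2 ^ e) ≤ 2000 * (e + 1) ^ 2 :=
  thorp_tmix

end Vale.Agent.Results.P162.ThorpQuadratic
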